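import Vale.Agent.P127.Api

/-! # P127 Flat/Cls.  Helper names start with `fcl_`.
flat_cls: idx τ = an index where |dv τ i| is maximal (Finset.exists_max_image; D ≠ 0 since the norm is positive; or Pi.exists_apply_eq_norm style lemmas), big_comb for
f τ = (cz 1 (logb 2 ‖dv τ‖), idx τ); cover_z with β = 1, q = 0, ρ = logb 2 N + 1; l0 = 2 ^ (the common floor) (zpow or rpow). -/

namespace Vale.Agent.P127

open Finset
open scoped Classical

theorem flat_cls {D : ℕ} {Ω : Type} (T : Finset Ω) (dv : Ω → V D) {N : ℝ} (hN : 1 ≤ N)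
    (hT : T.Nonempty) (h : ∀ τ ∈ T, 1 / N ≤ ‖dv τ‖ ∧ ‖dv τ‖ ≤ 2 * N) :
    ∃ F ⊆ T, ∃ (i1 : Fin D) (l0 : ℝ), (T.card : ℝ) ≤ D * (2 * Real.logb 2 N + 4) * F.card ∧
      ∀ τ ∈ F, l0 ≤ |dv τ i1| ∧ ‖dv τ‖ ≤ |dv τ i1| ∧ ‖dv τ‖ ≤ 2 * l0 := by
  have N0 : 0 < N := by linarith
  have hp : ∀ τ ∈ T, 0 < ‖dv τ‖ := fun τ hτ => (one_div_pos.2 N0).trans_le (h τ hτ).1
  obtain ⟨τ₀, h₀⟩ := hT
  have hD : (univ : Finset (Fin D)).Nonempty := by
    by_contra hn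
    rw [univ_nonempty_iff, not_nonempty_iff] at hn
    exact (hp τ₀ h₀).ne' (by rw [Subsingleton.elim (dv τ₀) 0, norm_zero])
  have hi : ∀ τ, ∃ i, ‖dv τ‖ ≤ |dv τ i| := fun τ => by
    obtain ⟨i, -, hi⟩ := exists_max_image univ (fun i => |dv τ i|) hD
    exact ⟨i, (pi_norm_le_iff_of_nonneg (abs_nonneg _)).2 fun j => hi j (mem_univ j)⟩
  choose idx hi using hi
  have hL : 0 ≤ Real.logb 2 N := Real.logb_nonneg one_lt_two hN
  obtain ⟨F, hF, h1, h2⟩ := big_comb T fun τ => (cz 1 (Real.logb 2 ‖dv τ‖), idx τ)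
  have h3 := icc_comb 0 one_pos (show 0 ≤ Real.logb 2 N + 1 by linarith)
  have h4 : (T.card : ℝ) ≤ D * (2 * Real.logb 2 N + 4) * F.card := by
    refine h1.trans (mul_le_mul_of_nonneg_right (le_trans (Nat.cast_le.2 (card_le_card
      (t := Icc (cz 1 (0 - (Real.logb 2 N + 1))) (cz 1 (0 + (Real.logb 2 N + 1))) ×ˢ univ)
      fun p hq => ?_)) ?_) (Nat.cast_nonneg _))
    · simp only [mem_image] at hq
      obtain ⟨τ, hτ, rfl⟩ := hq
      refine mem_product.2 ⟨mem_icc_comb one_pos ?_, mem_univ _⟩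
      have a1 := Real.logb_le_logb_of_le one_lt_two (one_div_pos.2 N0) (h τ hτ).1
      have a2 := Real.logb_le_logb_of_le one_lt_two (hp τ hτ) (h τ hτ).2
      rw [one_div, Real.logb_inv] at a1
      rw [Real.logb_mul two_ne_zero N0.ne', Real.logb_self_eq_one one_lt_two] at a2
      exact abs_le.2 ⟨by linarith, by linarith⟩
    · rw [card_product, card_univ, Fintype.card_fin, Nat.cast_mul, mul_comm]
      exact mul_le_mul_of_nonneg_left (by linarith) (Nat.cast_nonneg _)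
  have h5 : F.Nonempty := by
    by_contra hn
    rw [not_nonempty_iff_eq_empty.1 hn, card_empty, Nat.cast_zero, mul_zero] at h4
    exact h4.not_gt (Nat.cast_pos.2 (card_pos.2 ⟨τ₀, h₀⟩))
  obtain ⟨τ₁, h₁⟩ := h5
  refine ⟨F, hF, idx τ₁, 2 ^ ((cz 1 (Real.logb 2 ‖dv τ₁‖) : ℤ) : ℝ), h4, fun τ hτ => ?_⟩
  obtain ⟨e1, e2⟩ := Prod.ext_iff.1 (h2 τ₁ h₁ τ hτ)
  dsimp only at e1 e2
  rw [e1, e2, cz, div_one]
  have a0 := hp τ (hF hτ)
  have a1 := (Real.le_logb_iff_rpow_le one_lt_two a0).1 (Int.floor_le _)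
  have a2 := (Real.logb_le_iff_le_rpow one_lt_two a0).1 (Int.lt_floor_add_one _).le
  rw [Real.rpow_add two_pos, Real.rpow_one, mul_comm] at a2
  exact ⟨a1.trans (hi τ), hi τ, a2⟩

end Vale.Agent.P127
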