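import Vale.Agent.P127.Api

/-! # P127 Flat/Rich.  Helper names start with `fri_`.
flat_rich: card E ≤ card L * card Z ≤ K^2 nL H.  Y = nL H^2 Lw/K1, δ = Lw/(2 K^3 K1) ≥ 1/H.  Pairs of F with |z1 - z0| < δ number at most K^2 nL H * K δ H = Y/2 (hts).
G = E.filter (the stated bound).  Remaining pairs over ω outside G number at most K^2 nL H * H Lw/(4 K^2 K1) = Y/4, those over ω in G at most card G * K Lw H. -/

namespace Vale.Agent.P127

open Finset
open scoped Classical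

theorem flat_rich {D : ℕ} {c : Cfg D} {N H K Lw K1 : ℝ} (h : Pre c N H K) (hN : 1 ≤ N)
    (hK : 1 ≤ K) (hK1 : 1 ≤ K1) (hL0 : 0 < Lw) (hL1 : Lw ≤ 1) (hH : 2 * K ^ 3 * K1 ≤ H * Lw)
    (F : Finset ((ℕ × ℝ) × ℝ)) (hF : ∀ τ ∈ F, τ.1 ∈ c.E ∧ τ.2 ∈ c.Z ∧ |τ.2 - τ.1.2| ≤ Lw)
    (hc : c.nL * H ^ 2 * Lw / K1 ≤ F.card) :
    ∃ G ⊆ c.E, c.nL * H / (4 * K * K1) ≤ G.card ∧ ∀ ω ∈ G, H * Lw / (4 * K ^ 2 * K1) ≤
      ((c.Z.filter fun z1 => (ω, z1) ∈ F ∧ Lw / (2 * K ^ 3 * K1) ≤ |z1 - ω.2|).card : ℝ) := by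
  have hK3 : 1 ≤ K ^ 3 := one_le_pow₀ hK
  have hP : 2 ≤ 2 * K ^ 3 * K1 := by nlinarith
  have hH0 : 0 < H := by
    by_contra hn
    push Not at hn
    nlinarith
  have hH1 : 1 ≤ H := by nlinarith
  have hn := h.nL_pos
  have hK0 : 0 < K := by linarith
  have hK10 : 0 < K1 := by linarith
  obtain ⟨δ, hδ⟩ : ∃ δ, δ = Lw / (2 * K ^ 3 * K1) := ⟨_, rfl⟩
  obtain ⟨b, hb⟩ : ∃ b, b = H * Lw / (4 * K ^ 2 * K1) := ⟨_, rfl⟩
  rw [← hδ, ← hb]
  have hb0 : 0 < b := by rw [hb]; positivity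
  have hδ0 : 0 < δ := by rw [hδ]; positivity
  have hδH : 1 / H ≤ δ := by
    rw [hδ, div_le_div_iff₀ hH0 (by positivity)]
    linarith
  have hLH : 1 / H ≤ Lw := by
    rw [div_le_iff₀ hH0]
    linarith
  obtain ⟨far, hfar⟩ : ∃ far : ℕ × ℝ → Finset ℝ,
      ∀ ω, far ω = c.Z.filter fun z1 => (ω, z1) ∈ F ∧ δ ≤ |z1 - ω.2| := ⟨_, fun _ => rfl⟩
  refine ⟨c.E.filter fun ω => b ≤ ((far ω).card : ℝ), filter_subset _ _, ?_,
    fun ω hω => by rw [← hfar]; exact (mem_filter.1 hω).2⟩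
  have hE : (c.E.card : ℝ) ≤ K * c.nL * (K * H) := by
    have h1 : (c.E.card : ℝ) ≤ c.L.card * c.Z.card := by
      exact_mod_cast (card_le_card h.sub).trans (card_product _ _).le
    exact h1.trans (mul_le_mul (h.cardL hN) (h.cardZ hH1) (by positivity) (by positivity))
  have hFs : (F.card : ℝ) = ∑ ω ∈ c.E, ((F.filter fun τ => τ.1 = ω).card : ℝ) := by
    exact_mod_cast card_eq_sum_card_fiberwise (fun τ hτ => (hF τ hτ).1)
  have hfib : ∀ ω ∈ c.E, ((F.filter fun τ => τ.1 = ω).card : ℝ) ≤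
      (K * δ * H + b) + if b ≤ ((far ω).card : ℝ) then K * Lw * H else 0 := by
    intro ω _
    have h1 : (F.filter fun τ => τ.1 = ω).card ≤
        ((c.Z.filter fun z => |z - ω.2| ≤ δ) ∪ far ω).card := by
      refine card_le_card_of_injOn Prod.snd (fun τ hτ => ?_) (fun τ hτ τ' hτ' e => ?_)
      · obtain ⟨hτ1, rfl⟩ := mem_filter.1 (mem_coe.1 hτ)
        rw [mem_coe, mem_union, hfar, mem_filter, mem_filter]
        rcases le_total δ |τ.2 - τ.1.2| with h2 | h2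
        · exact Or.inr ⟨(hF τ hτ1).2.1, hτ1, h2⟩
        · exact Or.inl ⟨(hF τ hτ1).2.1, h2⟩
      · exact Prod.ext (((mem_filter.1 (mem_coe.1 hτ)).2).trans
          (mem_filter.1 (mem_coe.1 hτ')).2.symm) e
    have h2 : ((F.filter fun τ => τ.1 = ω).card : ℝ) ≤
        (c.Z.filter fun z => |z - ω.2| ≤ δ).card + (far ω).card := by
      exact_mod_cast h1.trans (card_union_le _ _)
    have h3 := h.hts ω.2 δ hδH
    split_ifs with h4
    · have h5 : (far ω).card ≤ (c.Z.filter fun z => |z - ω.2| ≤ Lw).card := by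
        refine card_le_card fun z hz => ?_
        rw [hfar, mem_filter] at hz
        exact mem_filter.2 ⟨hz.1, (hF _ hz.2.1).2.2⟩
      have h6 : ((far ω).card : ℝ) ≤ (c.Z.filter fun z => |z - ω.2| ≤ Lw).card := by
        exact_mod_cast h5
      have h7 := h.hts ω.2 Lw hLH
      linarith
    · push Not at h4
      linarith
  have hs := sum_le_sum hfib
  rw [← hFs, sum_add_distrib, sum_const, ← sum_filter, sum_const, nsmul_eq_mul,
    nsmul_eq_mul] at hs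
  have h8 : (c.E.card : ℝ) * (K * δ * H + b) ≤ K * c.nL * (K * H) * (K * δ * H + b) :=
    mul_le_mul_of_nonneg_right hE (by positivity)
  have h9 : K * c.nL * (K * H) * (K * δ * H + b) = 3 / 4 * (c.nL * H ^ 2 * Lw / K1) := by
    rw [hδ, hb]
    field_simp
    ring
  have h10 : c.nL * H / (4 * K * K1) * (K * Lw * H) = 1 / 4 * (c.nL * H ^ 2 * Lw / K1) := by
    field_simp
  refine le_of_mul_le_mul_right ?_ (show 0 < K * Lw * H by positivity)
  linarith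

end Vale.Agent.P127
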