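import Vale.Agent.P127.Api

/-! # P127 Flat/Small.  Helper names start with `fsm_`.
flat_small: `best` on T with k = key τ.1, t = τ.2.2, R = nΘ (the types of a key fibre lie in the image of h3) gives T'; E' = T'.image (·.1); a fibre injects by τ ↦ τ.2.1
into the heights within Lw of τ.1.2 (hts, 1/H ≤ Lw), card_le_fib.  Same key gives the same τ.2.2, triangle inequality. -/

namespace Vale.Agent.P127

open Finset
open scoped Classical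

theorem fsm_fib {Ω β : Type} (E : Finset Ω) (f : Ω → β) {M : ℝ}
    (h : ∀ ω ∈ E, ∀ S : Finset Ω, (∀ ω' ∈ S, ω' ∈ E ∧ f ω' = f ω) → (S.card : ℝ) ≤ M) :
    ∃ E' : Finset β, (∀ b ∈ E', ∃ ω ∈ E, f ω = b) ∧ (E.card : ℝ) ≤ E'.card * M :=
  ⟨E.image f, fun _ hb => mem_image.1 hb,
    card_le_fib E f fun ω hω => h ω hω _ fun _ h' => mem_filter.1 h'⟩

theorem flat_small {D : ℕ} {c : Cfg D} {N H K Lw nΘ W : ℝ} {Key Θ : Type}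
    (key : ℕ × ℝ → Key) (θ : ℕ × ℝ → Θ) (w : Key → Θ → V D) (h : Pre c N H K) (hK : 1 ≤ K)
    (hL0 : 0 < Lw) (hH : 1 ≤ H * Lw) (hnΘ : 0 < nΘ)
    (h3 : ∀ k0, (((c.E.filter fun ω => key ω = k0).image θ).card : ℝ) ≤ nΘ)
    (T : Finset ((ℕ × ℝ) × ℝ × Θ))
    (hT : ∀ τ ∈ T, τ.1 ∈ c.E ∧ τ.2.1 ∈ c.Z ∧ |τ.2.1 - τ.1.2| ≤ Lw ∧
      (∃ ω' ∈ c.E, key ω' = key τ.1 ∧ θ ω' = τ.2.2) ∧
      ‖w (key τ.1) (θ τ.1) - w (key τ.1) τ.2.2‖ ≤ W) :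
    ∃ E' ⊆ c.E, (T.card : ℝ) / (nΘ * (K * Lw * H)) ≤ E'.card ∧ ∀ ω ∈ E', ∀ ω' ∈ E',
      key ω = key ω' → ‖w (key ω) (θ ω) - w (key ω') (θ ω')‖ ≤ 2 * W := by
  have hH0 : 0 < H := by
    by_contra h0
    nlinarith [mul_nonneg (neg_nonneg.2 (not_lt.1 h0)) hL0.le]
  have hM : 0 < K * Lw * H := by positivity
  obtain ⟨T', hs, h1, h2⟩ := best T (fun τ => key τ.1) (fun τ => τ.2.2) hnΘ fun τ _ => by
    refine le_trans (Nat.cast_le.2 (card_le_card fun t ht => ?_)) (h3 (key τ.1))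
    obtain ⟨τ', hτ', rfl⟩ := mem_image.1 ht
    obtain ⟨a, b⟩ := mem_filter.1 hτ'
    obtain ⟨ω', c1, c2, c3⟩ := (hT τ' a).2.2.2.1
    exact mem_image.2 ⟨ω', mem_filter.2 ⟨c1, c2.trans b⟩, c3⟩
  obtain ⟨E', hE, k⟩ := fsm_fib T' (fun τ => τ.1) (M := K * Lw * H) fun τ _ S hS => by
    refine le_trans (Nat.cast_le.2 ?_) (h.hts τ.1.2 Lw (by rw [div_le_iff₀ hH0]; linarith))
    refine card_le_card_of_injOn (fun τ' => τ'.2.1) (fun τ' hτ' => ?_) fun τ₁ h₁ τ₂ h₂ e => ?_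
    · obtain ⟨a, b⟩ := hS _ hτ'
      obtain ⟨-, c1, c2, -⟩ := hT τ' (hs a)
      exact mem_coe.2 (mem_filter.2 ⟨c1, b ▸ c2⟩)
    · obtain ⟨a, b⟩ := hS _ h₁
      obtain ⟨a', b'⟩ := hS _ h₂
      have e1 : τ₁.1 = τ₂.1 := b.trans b'.symm
      exact Prod.ext e1 (Prod.ext e (h2 τ₁ a τ₂ a' (congrArg key e1)))
  rw [← div_le_iff₀ hM] at k
  refine ⟨E', fun ω hω => ?_, le_trans ?_ k, fun ω hω ω' hω' e => ?_⟩
  · obtain ⟨τ, a, rfl⟩ := hE _ hω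
    exact (hT τ (hs a)).1
  · rw [← div_div]
    exact div_le_div_of_nonneg_right h1 hM.le
  · obtain ⟨τ, a, rfl⟩ := hE _ hω
    obtain ⟨τ', a', rfl⟩ := hE _ hω'
    have c1 := (hT τ (hs a)).2.2.2.2
    have c2 := (hT τ' (hs a')).2.2.2.2
    rw [← h2 τ a τ' a' e, ← e] at c2
    rw [← e]
    have := norm_sub_le_norm_sub_add_norm_sub (w (key τ.1) (θ τ.1)) (w (key τ.1) τ.2.2)
      (w (key τ.1) (θ τ'.1))
    rw [norm_sub_rev (w (key τ.1) τ.2.2)] at this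
    linarith

end Vale.Agent.P127
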