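import Vale.Agent.P127.Api

/-! # P127 Flat/Cells.  Helper names start with `fce_`.
flat_cells: card_le_fib for z ↦ cell r (a z) on Y.  If z, z' have the same cell then with τ = z - z0, τ' = z' - z0 the vector (τ^p - τ'^p) • dv has norm at most 3 r (cell_close), so
(coordinate i1) |τ^p - τ'^p| ≤ Lw^p/N'.  p = 1: |τ - τ'| ≤ Lw/N'.  p = 2: |τ - τ'| |τ + τ'| ≤ Lw^2/N' and one factor is at least |τ| ≥ Lw/K2, so the other is at most K2 Lw/N'.
Hence z' is within ρ = K2 Lw/N' ≥ 1/H of z0 + τ or of z0 - τ: at most 2 K ρ H heights (hts twice). -/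

namespace Vale.Agent.P127

open Finset
open scoped Classical

theorem fce_alg {Lw K2 N' τ τ' : ℝ} {p : ℕ} (hp : p = 1 ∨ p = 2) (hK2 : 1 ≤ K2) (hL0 : 0 < Lw)
    (hN' : 1 ≤ N') (h1 : Lw / K2 ≤ |τ|) (h2 : |τ' ^ p - τ ^ p| ≤ Lw ^ p / N') :
    |τ' - τ| ≤ K2 * Lw / N' ∨ |τ' + τ| ≤ K2 * Lw / N' := by
  have hN : 0 < N' := by linarith
  have hK : 0 < K2 := by linarith
  rcases hp with rfl | rfl
  · left
    rw [pow_one, pow_one, pow_one] at h2
    refine h2.trans (div_le_div_of_nonneg_right ?_ hN.le)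
    nlinarith
  · by_contra hc
    obtain ⟨a1, a2⟩ := not_or.1 hc
    rw [not_le] at a1 a2
    have e : τ' ^ 2 - τ ^ 2 = (τ' - τ) * (τ' + τ) := by ring
    rw [e, abs_mul] at h2
    have e2 : Lw ^ 2 / N' = K2 * Lw / N' * (Lw / K2) := by field_simp
    have h3 : 2 * |τ| ≤ |τ' - τ| + |τ' + τ| := by
      have := abs_sub (τ' + τ) (τ' - τ)
      rw [show τ' + τ - (τ' - τ) = 2 * τ by ring, abs_mul, abs_two] at this
      linarith
    have p1 : 0 < K2 * Lw / N' := by positivity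
    have p2 : 0 < Lw / K2 := by positivity
    rw [e2] at h2
    rcases le_total |τ' - τ| |τ' + τ| with h4 | h4
    · have := mul_lt_mul a1 (show Lw / K2 ≤ |τ' + τ| by linarith) p2 (abs_nonneg _)
      linarith
    · have := mul_lt_mul a2 (show Lw / K2 ≤ |τ' - τ| by linarith) p2 (abs_nonneg _)
      linarith [mul_comm |τ' - τ| |τ' + τ|]

theorem flat_cells {D : ℕ} {c : Cfg D} {N H K Lw K2 N' r l0 z0 : ℝ} {p : ℕ} (h : Pre c N H K)
    (hp : p = 1 ∨ p = 2) (hK : 1 ≤ K) (hK2 : 1 ≤ K2) (hL0 : 0 < Lw) (hN' : 1 ≤ N')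
    (hH : N' ≤ H * Lw) (hr0 : 0 < r) (hl0 : 0 < l0) (hr : 3 * r ≤ Lw ^ p * l0 / N')
    (Y : Finset ℝ) (hY : Y ⊆ c.Z) (hc : H * Lw / K2 ≤ Y.card) (u0 dv : V D) (i1 : Fin D)
    (hl : l0 ≤ |dv i1|) (a : ℝ → V D)
    (ha : ∀ z ∈ Y, Lw / K2 ≤ |z - z0| ∧ ‖u0 - a z - (z - z0) ^ p • dv‖ ≤ r) :
    N' / (2 * K * K2 ^ 2) ≤ ((Y.image fun z => cell r (a z)).card : ℝ) := by
  have hN : 0 < N' := by linarith
  have hK0 : 0 < K2 := by linarith
  have hH0 : 0 < H := pos_of_mul_pos_left (show 0 < H * Lw by linarith) hL0.le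
  have hρ : 1 / H ≤ K2 * Lw / N' := by
    rw [div_le_div_iff₀ hH0 hN]
    nlinarith [mul_pos hH0 hL0]
  have key := card_le_fib Y (fun z => cell r (a z)) (M := 2 * (K * (K2 * Lw / N') * H)) (by
    intro z hz
    have s1 := h.hts z _ hρ
    have s2 := h.hts (2 * z0 - z) _ hρ
    rw [two_mul]
    refine le_trans ?_ (add_le_add s1 s2)
    rw [← Nat.cast_add, Nat.cast_le]
    refine le_trans (card_le_card ?_) (card_union_le _ _)
    intro z' hz'
    obtain ⟨hz1, hz2⟩ : z' ∈ Y ∧ cell r (a z') = cell r (a z) := by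
      simpa only [mem_filter] using hz'
    have c1 := cell_close hr0 hz2
    have c2 : ‖((z' - z0) ^ p - (z - z0) ^ p) • dv‖ ≤ 3 * r := by
      have e : ((z' - z0) ^ p - (z - z0) ^ p) • dv = (u0 - a z - (z - z0) ^ p • dv) -
          (u0 - a z' - (z' - z0) ^ p • dv) - (a z' - a z) := by
        rw [sub_smul]; abel
      rw [e]
      have := norm_sub_le ((u0 - a z - (z - z0) ^ p • dv) - (u0 - a z' - (z' - z0) ^ p • dv))
        (a z' - a z)
      have := norm_sub_le (u0 - a z - (z - z0) ^ p • dv) (u0 - a z' - (z' - z0) ^ p • dv)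
      linarith [(ha z hz).2, (ha z' hz1).2]
    have c3 := (norm_le_pi_norm _ i1).trans c2
    rw [Pi.smul_apply, smul_eq_mul, Real.norm_eq_abs, abs_mul] at c3
    have c4 : |(z' - z0) ^ p - (z - z0) ^ p| ≤ Lw ^ p / N' := by
      refine le_of_mul_le_mul_right ?_ hl0
      have := mul_le_mul_of_nonneg_left hl (abs_nonneg ((z' - z0) ^ p - (z - z0) ^ p))
      rw [div_mul_eq_mul_div]
      linarith
    rcases fce_alg hp hK2 hL0 hN' (ha z hz).1 c4 with c5 | c5
    · refine mem_union_left _ (mem_filter.2 ⟨hY hz1, ?_⟩)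
      rwa [show z' - z0 - (z - z0) = z' - z by ring] at c5
    · refine mem_union_right _ (mem_filter.2 ⟨hY hz1, ?_⟩)
      rwa [show z' - z0 + (z - z0) = z' - (2 * z0 - z) by ring] at c5)
  have e : H * Lw / K2 = N' / (2 * K * K2 ^ 2) * (2 * (K * (K2 * Lw / N') * H)) := by
    field_simp
  refine le_of_mul_le_mul_right ?_ (show 0 < 2 * (K * (K2 * Lw / N') * H) by positivity)
  rw [← e]
  refine hc.trans (key.trans_eq ?_)
  congr
  exact Subsingleton.elim _ _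

end Vale.Agent.P127
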