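import Vale.Agent.P127.Api2
import Vale.Agent.P127.Flat.Cells

/-! # P127 Flat/Height: counting the cells at one height.  Helper names start with `fh_`.
flat_height: r = α/N', ub = mv (P z) b, π v = v - (v i1/dv i1) • dv is additive, ‖π v‖ ≤ 2 ‖v‖, π (t • dv) = 0, and mv P' (α⁻¹ • (pos ω - b)) = α⁻¹ • (π (u ω) - π ub).
A0 = (2 D 2^D + 9) K.  𝒞 = image under cell r ∘ u of the ω' in E at height z with ‖u ω' - ub‖ ≤ A0 α; r3A (β = α, β' = r) bounds it by C3 A0^D K N'^(m - σ).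
(‖u ω - ub‖ ≤ D 2^D 2 α by norm_mv and Gr.norm_le, ‖τ^p • dv‖ ≤ Lw^p 2 l0 = 8 K α, r ≤ α.)  Relation between a cell y of the image and γ in 𝒞: some ω in A with cell y and some related ω' with
cell r (u ω') = γ.  Every y is related to at least N'/(2 K K2^2) cells γ (choose ω, Y, a z1 = u ω', flat_cells; 3 r ≤ Lw^p l0/N' as K ≥ 1), every γ to at most 10^D cells y
(π (u ω) is within 4 r of π (corner of γ), cell_corner, so the rescaled point is within 4/N' of a fixed point: cover).  Finset.card_nsmul_le_card_nsmul.  C = 2 * 10^D * C3 * (2 D 2^D + 9)^D. -/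

namespace Vale.Agent.P127

open Finset
open scoped Classical

/-- projection along `dv` -/
noncomputable def fh_pr {D : ℕ} (dv : V D) (i1 : Fin D) (v : V D) : V D := v - (v i1 / dv i1) • dv

theorem fh_smul {D : ℕ} (dv : V D) (i1 : Fin D) (t : ℝ) (v : V D) :
    fh_pr dv i1 (t • v) = t • fh_pr dv i1 v := by
  funext j
  simp only [fh_pr, Pi.sub_apply, Pi.smul_apply, smul_eq_mul]
  ring

theorem fh_sub {D : ℕ} {dv : V D} {i1 : Fin D} (h : dv i1 ≠ 0) (t : ℝ) (v w : V D) :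
    fh_pr dv i1 v - fh_pr dv i1 w = fh_pr dv i1 (v - w - t • dv) := by
  funext j
  simp only [fh_pr, Pi.sub_apply, Pi.smul_apply, smul_eq_mul]
  field_simp
  ring

theorem fh_norm {D : ℕ} {dv : V D} {i1 : Fin D} (h : dv i1 ≠ 0) (h' : ‖dv‖ ≤ |dv i1|) (v : V D) :
    ‖fh_pr dv i1 v‖ ≤ 2 * ‖v‖ := by
  have h1 : ‖(v i1 / dv i1) • dv‖ ≤ ‖v‖ := by
    rw [norm_smul, Real.norm_eq_abs, abs_div, div_mul_eq_mul_div, div_le_iff₀ (abs_pos.2 h)]
    exact mul_le_mul (norm_le_pi_norm v i1) h' (norm_nonneg _) (norm_nonneg _)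
  have h2 := norm_sub_le v ((v i1 / dv i1) • dv)
  unfold fh_pr
  linarith

theorem flat_height (D : ℕ) : ∃ C ≥ (1 : ℝ), ∀ {σ : ℝ} {m : ℕ} {d : Dat D}
    {N H K Lw K2 N' l0 α z : ℝ} {p : ℕ} (A : Finset (ℕ × ℝ)) (b dv : V D) (i1 : Fin D) (P' : Mt D),
    Reg σ m d N H K → 1 ≤ N → 1 ≤ K → 1 ≤ K2 → (p = 1 ∨ p = 2) → 0 < Lw → Lw ≤ 1 → 1 ≤ N' →
    N' ≤ H * Lw → 0 < l0 → α = Lw ^ p * l0 / (4 * K) → α ≤ 1 → 1 / N ≤ α / N' →
    l0 ≤ |dv i1| → ‖dv‖ ≤ |dv i1| → ‖dv‖ ≤ 2 * l0 →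
    (∀ v, mv P' v = mv (d.P z) v - (mv (d.P z) v i1 / dv i1) • dv) →
    (∀ ω ∈ A, ω.2 = z ∧ ‖d.c.pos ω - b‖ ≤ 2 * α ∧ ∃ Y ⊆ d.c.Z, H * Lw / K2 ≤ Y.card ∧
      ∀ z1 ∈ Y, Lw / K2 ≤ |z1 - z| ∧ |z1 - z| ≤ Lw ∧ ∃ ω' ∈ d.c.E, ω'.2 = z ∧
        ‖d.u ω - d.u ω' - (z1 - z) ^ p • dv‖ ≤ α / N') →
    ((A.image fun ω => cell (1 / N') (mv P' (α⁻¹ • (d.c.pos ω - b)))).card : ℝ) ≤
      C * K ^ (D + 2) * K2 ^ 2 * N' ^ ((m : ℝ) - 1 - σ) := by
  obtain ⟨C, hC, h3A⟩ := r3A D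
  have hc : (1 : ℝ) ≤ 2 * (D * 2 ^ D) + 9 := by
    have : (0 : ℝ) ≤ D * 2 ^ D := by positivity
    linarith
  refine ⟨2 * ((4 * 4) ^ D * (C * (2 * (D * 2 ^ D) + 9) ^ D)), one_le_mul_of_one_le_of_one_le
    (by norm_num) (one_le_mul_of_one_le_of_one_le (one_le_pow₀ (by norm_num))
      (one_le_mul_of_one_le_of_one_le hC (one_le_pow₀ hc))), ?_⟩
  intro σ m d N H K Lw K2 N' l0 α z p A b dv i1 P' h hN hK hK2 hp hL0 hL1 hN' hH hl0 hα hα1 hr hl
    hd1 hd2 hP hA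
  have hN0 : 0 < N' := by linarith
  have hα0 : 0 < α := by rw [hα]; positivity
  have hr0 : 0 < α / N' := by positivity
  have hrα : α / N' ≤ α := div_le_self hα0.le hN'
  have h4K : Lw ^ p * l0 = 4 * K * α := by rw [hα]; field_simp
  have hdv : dv i1 ≠ 0 := abs_pos.1 (hl0.trans_le hl)
  set ub := mv (d.P z) b with hub
  set g : ℕ × ℝ → V D := fun ω => mv P' (α⁻¹ • (d.c.pos ω - b)) with hg
  have hg' : ∀ ω ∈ A, g ω = α⁻¹ • fh_pr dv i1 (d.u ω - ub) := fun ω hω => by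
    rw [← fh_smul, Dat.u, (hA ω hω).1, hub, ← mv_sub, ← mv_smul]
    exact hP _
  have hB := h3A h hN ((2 * (D * 2 ^ D) + 9) * K) z α (α / N') ub
    (one_le_mul_of_one_le_of_one_le hc hK) hr hrα hα1
  set B := (d.c.E.filter fun ω => ω.2 = z ∧ ‖d.u ω - ub‖ ≤ (2 * (D * 2 ^ D) + 9) * K * α).image
    fun ω => cell (α / N') (d.u ω) with hBd
  have key := card_nsmul_le_card_nsmul (R := ℝ) (s := A.image fun ω => cell (1 / N') (g ω)) (t := B)
    (m := N' / (2 * K * K2 ^ 2)) (n := (4 * 4) ^ D)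
    (fun y γ => ∃ ω ∈ A, cell (1 / N') (g ω) = y ∧ ∃ (ω' : ℕ × ℝ) (t : ℝ),
      ‖d.u ω - d.u ω' - t • dv‖ ≤ α / N' ∧ cell (α / N') (d.u ω') = γ)
    (fun y hy => by
      obtain ⟨ω, hω, rfl⟩ := mem_image.1 hy
      obtain ⟨hz, hb, Y, hY, hYc, hY'⟩ := hA ω hω
      have hw : ∀ z1 ∈ Y, ∃ ω' ∈ d.c.E, ω'.2 = z ∧
          ‖d.u ω - d.u ω' - (z1 - z) ^ p • dv‖ ≤ α / N' := fun z1 h1 => (hY' z1 h1).2.2
      choose! w hw1 hw2 hw3 using hw
      refine (flat_cells h.good.toPre hp hK hK2 hL0 hN' hH hr0 hl0 ?_ Y hY hYc (d.u ω) dv i1 hl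
        (fun z1 => d.u (w z1)) fun z1 h1 => ⟨(hY' z1 h1).1, hw3 z1 h1⟩).trans
        (Nat.cast_le.2 (card_le_card fun γ hγ => ?_))
      · rw [h4K, mul_div_assoc]
        exact mul_le_mul_of_nonneg_right (by linarith) hr0.le
      · obtain ⟨z1, h1, rfl⟩ := mem_image.1 hγ
        refine mem_filter.2 ⟨mem_image_of_mem _ (mem_filter.2 ⟨hw1 z1 h1, hw2 z1 h1, ?_⟩),
          ω, hω, rfl, w z1, _, hw3 z1 h1, rfl⟩
        have a1 : ‖d.u ω - ub‖ ≤ D * 2 ^ D * (2 * α) := by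
          rw [Dat.u, hz, hub, ← mv_sub]
          exact (norm_mv _ _).trans (mul_le_mul (mul_le_mul_of_nonneg_left (h.gr.norm_le z)
            (Nat.cast_nonneg _)) hb (norm_nonneg _) (by positivity))
        have a2 : ‖(z1 - z) ^ p • dv‖ ≤ Lw ^ p * (2 * l0) := by
          rw [norm_smul, Real.norm_eq_abs, abs_pow]
          exact mul_le_mul (pow_le_pow_left₀ (abs_nonneg _) (hY' z1 h1).2.1 p) hd2 (norm_nonneg _)
            (by positivity)
        have e : d.u (w z1) - ub = d.u ω - ub - (d.u ω - d.u (w z1) - (z1 - z) ^ p • dv) -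
            (z1 - z) ^ p • dv := by abel
        have a3 := norm_sub_le (d.u ω - ub - (d.u ω - d.u (w z1) - (z1 - z) ^ p • dv))
          ((z1 - z) ^ p • dv)
        have a4 := norm_sub_le (d.u ω - ub) (d.u ω - d.u (w z1) - (z1 - z) ^ p • dv)
        have a5 := hw3 z1 h1
        have a6 : (2 * (D * 2 ^ D) + 1) * α * 1 ≤ (2 * (D * 2 ^ D) + 1) * α * K :=
          mul_le_mul_of_nonneg_left hK (by positivity)
        rw [e]
        linarith)
    (fun γ _ => by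
      obtain ⟨T, hT, hm⟩ := cov_cell_A2 (A.filter fun ω => ∃ (ω' : ℕ × ℝ) (t : ℝ),
          ‖d.u ω - d.u ω' - t • dv‖ ≤ α / N' ∧ cell (α / N') (d.u ω') = γ) g
        (α⁻¹ • fh_pr dv i1 ((fun j => α / N' * (γ j : ℝ)) - ub)) (β := 1 / N') (A := 4)
        (by positivity) (by norm_num) fun ω hω => by
          obtain ⟨hω1, ω', t, a1, rfl⟩ := mem_filter.1 hω
          have a2 := cell_corner hr0 (d.u ω')
          set q : V D := fun j => α / N' * (cell (α / N') (d.u ω') j : ℝ) with hq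
          have e : d.u ω - ub - (q - ub) - t • dv = d.u ω - d.u ω' - t • dv + (d.u ω' - q) := by
            abel
          have a3 := norm_add_le (d.u ω - d.u ω' - t • dv) (d.u ω' - q)
          have a4 := fh_norm hdv hd1 (d.u ω - d.u ω' - t • dv + (d.u ω' - q))
          rw [hg' ω hω1, ← smul_sub, fh_sub hdv t, e, norm_smul, Real.norm_eq_abs,
            abs_of_pos (inv_pos.2 hα0), inv_mul_le_iff₀ hα0]
          have e2 : α * (4 * (1 / N')) = 4 * (α / N') := by ring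
          rw [e2]
          linarith
      rw [Fintype.card_fin] at hT
      refine le_trans (Nat.cast_le.2 (card_le_card fun y hy => ?_)) hT
      obtain ⟨-, ω, hω, rfl, hω'⟩ := mem_filter.1 hy
      exact hm ω (mem_filter.2 ⟨hω, hω'⟩))
  rw [nsmul_eq_mul, nsmul_eq_mul, ← le_div_iff₀ (by positivity)] at key
  refine key.trans ?_
  have e1 : α / (α / N') = N' := by field_simp
  have e2 : N' ^ ((m : ℝ) - σ) = N' ^ ((m : ℝ) - 1 - σ) * N' := by
    rw [← Real.rpow_add_one hN0.ne']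
    congr 1
    ring
  rw [e1, e2] at hB
  rw [div_le_iff₀ (by positivity)]
  refine (mul_le_mul_of_nonneg_right hB (by positivity)).trans (le_of_eq ?_)
  rw [mul_pow _ K]
  field_simp
  ring

end Vale.Agent.P127
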