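import Vale.Agent.P127.Zoom
import Vale.Agent.P127.Flat.Height

/-! # P127 Flat/Zm: zoom into a tube and enlarge the grains.  Helper names start with `fz_`.
α = Lw^p l0/(4K) ≤ Lw/2.  G is nonempty, so i1 ∈ S.  `best` on G with k ω = (cell α (x ω.1), cell α (e ω.1), ω.2), t ω = (key ω, θ ω), R = K (box hypothesis with centre e ω.1, pos ω:
‖e' - e‖ ≤ α, ‖pos' - pos‖ ≤ 2 α; decidability instances may need `convert`) gives G' with card ≥ nL H/(K K2).  zoom with E' = G', K' = K K2 gives xc, ec, c'.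
Two elements of c'.E at the same height have the same type (Good.sub, same tube).  dv z = if h : ∃ ω ∈ c'.E, ω.2 = z then dw (key h.choose) (θ h.choose) else Pi.single i1 1.
P' z i j = if i ∈ S.erase i1 then P z i j - (dv z i / dv z i1) * P z i1 j else 0;  d' = ⟨c', S.erase i1, P', κ⟩.  Gr: |dv i / dv i1| ≤ 1, D - (m - 1) = D - m + 1 (m = card S ≤ D).
mv (P' z) v = mv (P z) v - (mv (P z) v i1 / dv z i1) • dv z (coordinates outside S vanish, coordinate i1 cancels).  c'.pos ω = α⁻¹ • (pos ω - (xc + ω.2 • ec)).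
image_le_mul with f = height (at most N' + 2 ≤ 3 N' heights) and flat_height at each height.  C = 4^(D+1) + 3 C_height. -/

namespace Vale.Agent.P127

open Finset
open scoped Classical

/-- projection along `dv` -/
noncomputable def fz_P {D : ℕ} (S : Finset (Fin D)) (i1 : Fin D) (P : Mt D) (dv : V D) : Mt D :=
  fun i j => if i ∈ S.erase i1 then P i j - dv i / dv i1 * P i1 j else 0

theorem fz_gr {D : ℕ} {S : Finset (Fin D)} {P : ℝ → Mt D} (h : Gr S P) {i1 : Fin D} (hi : i1 ∈ S)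
    {dv : ℝ → V D} (hd : ∀ z, ‖dv z‖ ≤ |dv z i1|) :
    Gr (S.erase i1) fun z => fz_P S i1 (P z) (dv z) := by
  intro z
  obtain ⟨-, h2, h3⟩ := h z
  refine ⟨fun i hi' j => if_neg hi', fun i hi' j hj => ?_, fun i j => ?_⟩
  · simp only [fz_P, if_pos hi']
    rw [h2 i (mem_of_mem_erase hi') j (mem_of_mem_erase hj), h2 i1 hi j (mem_of_mem_erase hj),
      if_neg (ne_of_mem_erase hj).symm, mul_zero, sub_zero]
  · have h4 : S.card ≤ D := (card_le_univ S).trans_eq (Fintype.card_fin D)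
    have h5 : 0 < S.card := card_pos.2 ⟨i1, hi⟩
    have h6 : |dv z i / dv z i1| ≤ 1 := by
      rw [abs_div]
      exact div_le_one_of_le₀ ((norm_le_pi_norm (dv z) i).trans (hd z)) (abs_nonneg _)
    simp only [fz_P]
    split_ifs
    · rw [card_erase_of_mem hi, show D - (S.card - 1) = D - S.card + 1 by omega, pow_succ]
      have h7 := abs_sub (P z i j) (dv z i / dv z i1 * P z i1 j)
      rw [abs_mul] at h7
      have h8 := mul_le_of_le_one_left (abs_nonneg (P z i1 j)) h6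
      linarith [h3 i j, h3 i1 j]
    · rw [abs_zero]
      positivity

theorem fz_mv {D : ℕ} {S : Finset (Fin D)} {P : Mt D} (h : ∀ i ∉ S, ∀ j, P i j = 0) {i1 : Fin D}
    {dv : V D} (h0 : ∀ i ∉ S, dv i = 0) (h1 : dv i1 ≠ 0) (v : V D) :
    mv (fz_P S i1 P dv) v = mv P v - (mv P v i1 / dv i1) • dv := by
  funext i
  rw [Pi.sub_apply, Pi.smul_apply, smul_eq_mul]
  by_cases hi : i ∈ S.erase i1
  · simp only [mv, fz_P, if_pos hi, sub_mul, sum_sub_distrib, mul_assoc, ← mul_sum]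
    ring
  · have h2 : mv (fz_P S i1 P dv) v i = 0 := by simp only [mv, fz_P, if_neg hi, zero_mul, sum_const_zero]
    rw [h2]
    rcases eq_or_ne i i1 with rfl | h3
    · rw [div_mul_cancel₀ _ h1, sub_self]
    · have h4 : i ∉ S := fun h4 => hi (mem_erase.2 ⟨h3, h4⟩)
      simp only [mv, h i h4, h0 i h4, zero_mul, sum_const_zero, mul_zero, sub_zero]

theorem fz_best {Ω κ β : Type} (E : Finset Ω) (k : Ω → κ) (t : Ω → β) {R : ℝ} (hR : 0 < R)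
    (h : ∀ ω ∈ E, ∃ T : Finset β, (T.card : ℝ) ≤ R ∧ ∀ ω' ∈ E, k ω' = k ω → t ω' ∈ T) :
    ∃ E' ⊆ E, (E.card : ℝ) / R ≤ E'.card ∧ ∀ ω ∈ E', ∀ ω' ∈ E', k ω = k ω' → t ω = t ω' := by
  refine best E k t hR fun ω hω => ?_
  obtain ⟨T, h1, h2⟩ := h ω hω
  refine le_trans (Nat.cast_le.2 (card_le_card fun y hy => ?_)) h1
  obtain ⟨ω', h3, rfl⟩ := mem_image.1 hy
  exact h2 ω' (mem_filter.1 h3).1 (mem_filter.1 h3).2

theorem fz_pos {D : ℕ} {x e x' e' : V D} {z α : ℝ} (hz : 0 ≤ z ∧ z ≤ 1) (hx : ‖x - x'‖ ≤ α)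
    (he : ‖e - e'‖ ≤ α) : ‖x + z • e - (x' + z • e')‖ ≤ 2 * α := by
  rw [add_sub_add_comm, ← smul_sub]
  refine (norm_add_le _ _).trans ?_
  rw [norm_smul, Real.norm_of_nonneg hz.1]
  linarith [mul_le_of_le_one_left (norm_nonneg (e - e')) hz.2]

theorem flat_zoom (D : ℕ) : ∃ C ≥ (1 : ℝ), ∀ {σ : ℝ} {m : ℕ} {d : Dat D}
    {N H K Lw K2 N' l0 R K' : ℝ} {p : ℕ} {Key Θ : Type} (key : ℕ × ℝ → Key) (θ : ℕ × ℝ → Θ)
    (dw : Key → Θ → V D) (i1 : Fin D) (G : Finset (ℕ × ℝ)),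
    Reg σ m d N H K → 1 ≤ m → 1 ≤ N → 1 ≤ K → 1 ≤ K2 → (p = 1 ∨ p = 2) → 0 < Lw → Lw ≤ 1 →
    1 ≤ N' → N' ≤ H * Lw → 0 < l0 → l0 ≤ 2 * K → 1 / N ≤ R → R ≤ Lw ^ p * l0 / (4 * K) / N' →
    (∀ (z : ℝ) (p q : V D), (((d.c.E.filter fun ω => ω.2 = z ∧ ‖d.c.e ω.1 - p‖ ≤ Lw ∧
      ‖d.c.pos ω - q‖ ≤ 2 * Lw).image fun ω => (key ω, θ ω)).card : ℝ) ≤ K) →
    G ⊆ d.c.E → d.c.nL * H / K2 ≤ G.card → (∀ k t i, i ∉ d.S → dw k t i = 0) →
    (∀ ω ∈ G, l0 ≤ |dw (key ω) (θ ω) i1| ∧ ‖dw (key ω) (θ ω)‖ ≤ |dw (key ω) (θ ω) i1| ∧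
      ‖dw (key ω) (θ ω)‖ ≤ 2 * l0 ∧ ∃ Y ⊆ d.c.Z, H * Lw / K2 ≤ Y.card ∧
      ∀ z1 ∈ Y, Lw / K2 ≤ |z1 - ω.2| ∧ |z1 - ω.2| ≤ Lw ∧ ∃ ω' ∈ d.c.E, ω'.2 = ω.2 ∧
        ‖d.u ω - d.u ω' - (z1 - ω.2) ^ p • dw (key ω) (θ ω)‖ ≤ R) →
    C * K ^ (D + 3) * K2 ^ 2 ≤ K' → ∃ d' : Dat D, CK σ (m - 1) d' N' K' := by
  obtain ⟨Ch, hCh, hfh⟩ := flat_height D
  have h4D : (1 : ℝ) ≤ 4 ^ (D + 1) := one_le_pow₀ (by norm_num)
  refine ⟨4 ^ (D + 1) + 3 * Ch, by linarith, ?_⟩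
  intro σ m d N H K Lw K2 N' l0 R K' p Key Θ key θ dw i1 G h hm hN hK hK2 hp hL0 hL1 hN' hH hl0 hl2
    hR1 hR2 hbox hG hGc hdw hrel hK'
  obtain ⟨α, hα⟩ : ∃ α, α = Lw ^ p * l0 / (4 * K) := ⟨_, rfl⟩
  rw [← hα] at hR2
  have hα0 : 0 < α := by rw [hα]; positivity
  have hαL : α ≤ Lw := by
    have h1 : Lw ^ p ≤ Lw := pow_le_of_le_one hL0.le hL1 (by omega)
    rw [hα, div_le_iff₀ (by positivity)]
    nlinarith [mul_le_mul h1 hl2 hl0.le hL0.le, mul_pos hL0 (show 0 < K by linarith)]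
  have hH0 : 0 < H := (mul_pos_iff_of_pos_right hL0).1 (by linarith)
  have hNH : N' ≤ H := hH.trans (mul_le_of_le_one_right hH0.le hL1)
  have hnL := h.good.nL_pos
  have hz : ∀ ω ∈ d.c.E, 0 ≤ ω.2 ∧ ω.2 ≤ 1 := fun ω hω =>
    h.good.bz _ (mem_product.1 (h.good.sub hω)).2
  have hi1 : i1 ∈ d.S := by
    obtain ⟨ω, hω⟩ : G.Nonempty := card_pos.1 (Nat.cast_pos.1
      ((show 0 < d.c.nL * H / K2 by positivity).trans_le hGc))
    by_contra h1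
    have h2 := (hrel ω hω).1
    rw [hdw _ _ _ h1, abs_zero] at h2
    linarith
  obtain ⟨G', hG', hc', hty⟩ := fz_best G (fun ω => (cell α (d.c.x ω.1), cell α (d.c.e ω.1), ω.2))
    (fun ω => (key ω, θ ω)) (show 0 < K by linarith) (fun ω hω => by
      refine ⟨_, hbox ω.2 (d.c.e ω.1) (d.c.pos ω), fun ω' h2 h3 => ?_⟩
      simp only [Prod.mk.injEq] at h3
      refine mem_image.2 ⟨ω', mem_filter.2 ⟨hG h2, h3.2.2, (cell_close hα0 h3.2.1).trans hαL, ?_⟩,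
        rfl⟩
      have h4 := fz_pos (hz ω (hG hω)) (cell_close hα0 h3.1) (cell_close hα0 h3.2.1)
      rw [Cfg.pos, Cfg.pos, h3.2.2]
      linarith)
  have hKK : 1 ≤ K * K2 := one_le_mul_of_one_le_of_one_le hK hK2
  obtain ⟨xc, ec, c', hE, -, htube, hx, he, hZ, hgood⟩ := zoom h.good (hG'.trans hG)
    (K' := K * K2) (le_trans (by
      rw [mul_comm K, ← div_div]
      exact div_le_div_of_nonneg_right hGc (by linarith)) hc') hN hK hKK hα0 (hαL.trans hL1) hN' hNH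
    (hR1.trans hR2)
  have hL' : ∀ ω ∈ c'.E, ω.1 ∈ c'.L := fun ω hω => (mem_product.1 (hgood.sub hω)).1
  obtain ⟨dv, hdv, hdv'⟩ : ∃ dv : ℝ → V D, (∀ ω ∈ c'.E, dv ω.2 = dw (key ω) (θ ω)) ∧
      ∀ z, ‖dv z‖ ≤ |dv z i1| := by
    refine ⟨fun z => if hz : ∃ ω ∈ c'.E, ω.2 = z then dw (key hz.choose) (θ hz.choose) else 0,
      fun ω hω => ?_, fun z => ?_⟩
    · have h1 : ∃ ω' ∈ c'.E, ω'.2 = ω.2 := ⟨ω, hω, rfl⟩
      obtain ⟨h2, h3⟩ := h1.choose_spec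
      have h4 := hty _ (hE h2) ω (hE hω) (by
        simp only [(htube _ (hL' _ h2)).1, (htube _ (hL' _ h2)).2.1, (htube _ (hL' _ hω)).1,
          (htube _ (hL' _ hω)).2.1, h3])
      simp only [Prod.mk.injEq] at h4
      simp only [dif_pos h1, h4.1, h4.2]
    · beta_reduce
      split_ifs with h1
      · exact (hrel _ (hG' (hE h1.choose_spec.1))).2.1
      · rw [norm_zero]
        exact abs_nonneg _
  have hP : K ^ (D + 2) ≤ K ^ (D + 3) := pow_le_pow_right₀ hK (by omega)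
  have hP3 : K ^ 3 ≤ K ^ (D + 3) := pow_le_pow_right₀ hK (by omega)
  have hQ : K2 ≤ K2 ^ 2 := le_self_pow₀ hK2 two_ne_zero
  have hX : 0 ≤ K ^ (D + 3) * K2 ^ 2 := by positivity
  refine ⟨⟨c', d.S.erase i1, fun z => fz_P d.S i1 (d.P z) (dv z), d.κ⟩,
    by rw [card_erase_of_mem hi1, h.card_S], hgood.mono (by linarith) (by linarith) (by positivity)
      (le_trans ?_ hK'), fz_gr h.gr hi1 hdv', ?_⟩
  · have h1 : K ^ 3 * K2 ≤ K ^ (D + 3) * K2 ^ 2 := mul_le_mul hP3 hQ (by linarith) (by positivity)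
    nlinarith [mul_le_mul_of_nonneg_left h1 (show (0 : ℝ) ≤ 4 ^ (D + 1) by linarith),
      mul_nonneg (show 0 ≤ Ch by linarith) hX]
  have hY : 0 ≤ N' ^ ((m : ℝ) - 1 - σ) := by positivity
  rw [Nat.cast_sub hm, Nat.cast_one]
  refine (img_A2 (E := c'.E) (f := fun ω => ω.2)
    (fun ω => (ω.2, cell (1 / N') (mv (fz_P d.S i1 (d.P ω.2) (dv ω.2)) (c'.pos ω))))
    (R := 3 * N') (M := Ch * K ^ (D + 2) * K2 ^ 2 * N' ^ ((m : ℝ) - 1 - σ)) (by positivity)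
    ⟨c'.Z, hZ.trans (by linarith), fun ω hω => (mem_product.1 (hgood.sub hω)).2⟩
    fun ω hω => ?_).trans ?_
  · obtain ⟨r1, r2, r3, -⟩ := hrel ω (hG' (hE hω))
    rw [← hdv ω hω] at r1 r2 r3
    refine ⟨Finset.image (fun y => (ω.2, y)) _, le_trans (Nat.cast_le.2 card_image_le)
      (hfh (c'.E.filter fun ω' => ω'.2 = ω.2) (xc + ω.2 • ec)
      (dv ω.2) i1 (fz_P d.S i1 (d.P ω.2) (dv ω.2)) h hN hK hK2 hp hL0 hL1 hN' hH hl0 hα
      (hαL.trans hL1) (hR1.trans hR2) r1 r2 r3 (fz_mv (h.gr ω.2).1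
        (fun i hi => by rw [hdv ω hω, hdw _ _ _ hi]) (abs_pos.1 (hl0.trans_le r1)))
        fun ω' h1 => ?_), fun ω' h1 h2 => ?_⟩
    · obtain ⟨h2, h3⟩ := mem_filter.1 h1
      obtain ⟨-, -, -, Y, h4, h5, h6⟩ := hrel ω' (hG' (hE h2))
      rw [← hdv ω' h2, h3] at h6
      refine ⟨h3, ?_, Y, h4, h5, fun z1 hz1 => ?_⟩
      · rw [Cfg.pos, h3]
        exact fz_pos (hz ω (hG (hG' (hE hω)))) (htube _ (hL' _ h2)).2.2.1 (htube _ (hL' _ h2)).2.2.2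
      · obtain ⟨h7, h8, ω'', h9, h10, h11⟩ := h6 z1 hz1
        exact ⟨h7, h8, ω'', h9, h10, h11.trans hR2⟩
    · replace h2 : ω'.2 = ω.2 := h2
      refine mem_image.2 ⟨_, mem_image.2 ⟨ω', mem_filter.2 ⟨h1, h2⟩, rfl⟩, ?_⟩
      have h3 : c'.pos ω' = α⁻¹ • (d.c.pos ω' - (xc + ω.2 • ec)) := by
        simp only [Cfg.pos, hx, he, h2]
        rw [add_sub_add_comm, ← smul_sub, smul_add, smul_comm α⁻¹ ω.2]
      rw [h3, h2]
  · have h2 : 3 * (Ch * K ^ (D + 2) * K2 ^ 2) ≤ K' := by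
      refine le_trans ?_ hK'
      have h3 : K ^ (D + 2) * K2 ^ 2 ≤ K ^ (D + 3) * K2 ^ 2 :=
        mul_le_mul_of_nonneg_right hP (by positivity)
      nlinarith [mul_le_mul_of_nonneg_left h3 (show 0 ≤ Ch by linarith),
        mul_nonneg (show (0 : ℝ) ≤ 4 ^ (D + 1) by linarith) hX]
    have h3 := mul_le_mul_of_nonneg_right h2 (mul_nonneg (show 0 ≤ N' by linarith) hY)
    linarith

end Vale.Agent.P127
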