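import Vale.Agent.P127.Api
import Vale.Agent.P127.Api2

/-! # P127 Flat/Tup: many good tuples (pure counting).  Helper names start with `ftup_`.
Plan.  M = card E ≥ nL H / K.  H ≥ 1 and 1/H ≤ Lw.
1. T0 = (E ×ˢ E).filter (f a = f b) with f ω = (ω.1, cz Lw ω.2).  card (E.image f) ≤ card L * (3/Lw) ≤ K nL * 3/Lw
   (image_le_mul or a product inclusion, cover_z with q = 1/2, ρ = 1/2, Pre.cardL).  cs gives card T0 ≥ M^2 Lw/(3 K nL) ≥ nL H^2 Lw/(3 K^3).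
2. g (a, b) = (key a, b.2, c1 b) on T0.  card (T0.image g) ≤ nK * (K Lw H) * n1: image_le_mul twice (for a fixed key the height a.2 is fixed by hkey and
   b.2 is a height of Z within Lw of it: cz_close and hts; for fixed key and b.2 use h2).  Q = pairs of T0 with the same g, cs gives card T0 ^ 2 ≤ nK K Lw H n1 * card Q.
3. T = Q.image fun q => (q.1.1, q.1.2.2, θ q.2.1).  A fibre injects by q ↦ q.2.1.1 into the set of h4 (q.1.2 = (q.1.1.1, height), q.2.1.2 = q.1.1.2 by hkey, q.2.2 = (q.2.1.1, height)),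
   so card Q ≤ card T * m1 (card_le_fib).  Combine with h5. -/

namespace Vale.Agent.P127

open Finset
open scoped Classical

theorem ftup_cs {Ω β : Type} {E : Finset Ω} {f : Ω → β} {R : ℝ} (h : CovA2 E f R) :
    ∃ Q : Finset (Ω × Ω), (∀ q, q ∈ Q ↔ q.1 ∈ E ∧ q.2 ∈ E ∧ f q.1 = f q.2) ∧
      (E.card : ℝ) ^ 2 ≤ R * Q.card := by
  obtain ⟨T, hT, hE⟩ := h
  refine ⟨(E ×ˢ E).filter fun p => f p.1 = f p.2, fun q => by
    rw [mem_filter, mem_product, and_assoc], le_trans (cs E f) ?_⟩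
  refine mul_le_mul_of_nonneg_right (le_trans ?_ hT) (Nat.cast_nonneg _)
  exact_mod_cast card_le_card (image_subset_iff.2 hE)

theorem ftup_step {Ω β γ : Type} {E : Finset Ω} {f : Ω → β} {g : Ω → γ} {R M : ℝ} (hM : 0 ≤ M)
    (hR : CovA2 E f R)
    (h : ∀ ω ∈ E, ∃ S : Finset γ, (S.card : ℝ) ≤ M ∧ ∀ ω' ∈ E, f ω' = f ω → g ω' ∈ S) :
    CovA2 E (fun ω => (f ω, g ω)) (R * M) := by
  refine ⟨E.image fun ω => (f ω, g ω), img_A2 _ hM hR fun ω hω => ?_,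
    fun ω hω => mem_image_of_mem _ hω⟩
  obtain ⟨S, hS, hS'⟩ := h ω hω
  refine ⟨S.image fun s => (f ω, s), le_trans (by exact_mod_cast card_image_le) hS,
    fun ω' hω' e => ?_⟩
  rw [e]
  exact mem_image_of_mem _ (hS' ω' hω' e)

theorem ftup_arith {M t q T nL H K Lw A nΘ m1 : ℝ} (hL : 0 < nL) (hH : 0 < H) (hK : 0 < K)
    (hw : 0 < Lw) (hA : 0 < A) (hΘ : 0 < nΘ) (hT : 0 ≤ T) (h0 : nL * H / K ≤ M)
    (h1 : M ^ 2 ≤ K * nL * (3 / Lw) * t) (h2 : t ^ 2 ≤ K * Lw * H * A * q) (h3 : q ≤ T * m1)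
    (h4 : A * nΘ * m1 ≤ K * nL * H) : nΘ * nL * H ^ 2 * Lw / (9 * K ^ 8) ≤ T := by
  have e1 : nL * H ^ 2 * Lw / (3 * K ^ 3) ≤ t := by
    have a1 := le_trans (pow_le_pow_left₀ (by positivity) h0 2) h1
    have a2 : (nL * H / K) ^ 2 = K * nL * (3 / Lw) * (nL * H ^ 2 * Lw / (3 * K ^ 3)) := by
      field_simp
    rw [a2] at a1
    exact le_of_mul_le_mul_left a1 (by positivity)
  have e2 := le_trans (pow_le_pow_left₀ (by positivity) e1 2)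
    (le_trans h2 (mul_le_mul_of_nonneg_left h3 (by positivity)))
  have e3 := mul_le_mul_of_nonneg_left e2 hΘ.le
  have e4 : nΘ * (K * Lw * H * A * (T * m1)) ≤ K * Lw * H * T * (K * nL * H) := by
    have a3 : nΘ * (K * Lw * H * A * (T * m1)) = K * Lw * H * T * (A * nΘ * m1) := by ring
    rw [a3]
    exact mul_le_mul_of_nonneg_left h4 (by positivity)
  have e5 := le_trans e3 e4
  have a4 : nΘ * (nL * H ^ 2 * Lw / (3 * K ^ 3)) ^ 2 =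
      K ^ 2 * Lw * H ^ 2 * nL * (nΘ * nL * H ^ 2 * Lw / (9 * K ^ 8)) := by
    field_simp
    norm_num
  have a5 : K * Lw * H * T * (K * nL * H) = K ^ 2 * Lw * H ^ 2 * nL * T := by ring
  rw [a4, a5] at e5
  exact le_of_mul_le_mul_left e5 (by positivity)

theorem flat_tup {D : ℕ} {c : Cfg D} {N H K Lw nK n1 nΘ m1 : ℝ} {Key Θ C1 : Type}
    (key : ℕ × ℝ → Key) (θ : ℕ × ℝ → Θ) (c1 : ℕ × ℝ → C1) (h : Pre c N H K) (hN : 1 ≤ N)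
    (hK : 1 ≤ K) (hL0 : 0 < Lw) (hL1 : Lw ≤ 1) (hH : 1 ≤ H * Lw) (hnK : 0 < nK) (hn1 : 0 < n1)
    (hnΘ : 0 < nΘ) (hm1 : 0 < m1)
    (hkey : ∀ ω ∈ c.E, ∀ ω' ∈ c.E, key ω = key ω' → ω.2 = ω'.2)
    (h1 : ((c.E.image key).card : ℝ) ≤ nK)
    (h2 : ∀ k0 z1, (((c.L.filter fun i => (i, z1) ∈ c.E ∧ ∃ z0, (i, z0) ∈ c.E ∧
      key (i, z0) = k0 ∧ cz Lw z0 = cz Lw z1).image fun i => c1 (i, z1)).card : ℝ) ≤ n1)
    (h4 : ∀ k0 t z1 γ, ((c.L.filter fun i => (i, z1) ∈ c.E ∧ c1 (i, z1) = γ ∧ ∃ z0,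
      (i, z0) ∈ c.E ∧ key (i, z0) = k0 ∧ θ (i, z0) = t ∧ cz Lw z0 = cz Lw z1).card : ℝ) ≤ m1)
    (h5 : nK * n1 * nΘ * m1 ≤ K * c.nL * H) :
    ∃ T : Finset ((ℕ × ℝ) × ℝ × Θ), nΘ * c.nL * H ^ 2 * Lw / (9 * K ^ 8) ≤ T.card ∧
      ∀ τ ∈ T, τ.1 ∈ c.E ∧ (τ.1.1, τ.2.1) ∈ c.E ∧ cz Lw τ.1.2 = cz Lw τ.2.1 ∧
        ∃ i', (i', τ.1.2) ∈ c.E ∧ (i', τ.2.1) ∈ c.E ∧ key (i', τ.1.2) = key τ.1 ∧
          θ (i', τ.1.2) = τ.2.2 ∧ c1 (τ.1.1, τ.2.1) = c1 (i', τ.2.1) := by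
  have hH0 : 0 < H := by
    by_contra hn
    nlinarith [mul_nonneg (neg_nonneg.2 (not_lt.1 hn)) hL0.le]
  have hK0 : 0 < K := by linarith
  have hHL : 1 / H ≤ Lw := by rw [div_le_iff₀ hH0]; linarith
  have hL : ∀ ω ∈ c.E, ω.1 ∈ c.L := fun ω hω => (mem_product.1 (h.sub hω)).1
  have hZ : ∀ ω ∈ c.E, ω.2 ∈ c.Z := fun ω hω => (mem_product.1 (h.sub hω)).2
  have c0 : CovA2 c.E (fun ω => ω.1) (K * c.nL) := ⟨c.L, h.cardL hN, hL⟩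
  have c0' : CovA2 c.E (fun ω => cz Lw ω.2) (3 / Lw) := by
    refine ⟨c.E.image fun ω => cz Lw ω.2, ?_, fun ω hω => mem_image_of_mem _ hω⟩
    have a1 := cover_z c.E (fun ω => ω.2) (1 / 2) hL0 (ρ := 1 / 2) (by norm_num) fun ω hω =>
      abs_le.2 ⟨by linarith [(h.bz _ (hZ ω hω)).1], by linarith [(h.bz _ (hZ ω hω)).2]⟩
    refine le_trans a1 ?_
    rw [le_div_iff₀ hL0, add_mul, div_mul_cancel₀ _ hL0.ne']
    linarith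
  obtain ⟨T0, hT0, hc0⟩ := ftup_cs (c0.pair c0')
  simp only [Prod.mk.injEq] at hT0
  have g1 : CovA2 T0 (fun p => key p.1) nK :=
    ⟨c.E.image key, h1, fun p hp => mem_image_of_mem _ ((hT0 p).1 hp).1⟩
  have g2 := ftup_step (g := fun p => p.2.2) (M := K * Lw * H) (by positivity) g1 fun p hp =>
    ⟨_, h.hts p.1.2 Lw hHL, fun p' hp' e => by
      obtain ⟨a1, a2, -, a4⟩ := (hT0 p').1 hp'
      refine mem_filter.2 ⟨hZ _ a2, ?_⟩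
      rw [← hkey _ a1 _ ((hT0 p).1 hp).1 e]
      exact cz_close hL0 a4.symm⟩
  have g3 := ftup_step (g := fun p => c1 p.2) hn1.le g2 fun p hp =>
    ⟨_, h2 (key p.1) p.2.2, fun p' hp' e => by
      obtain ⟨⟨i, z0⟩, ⟨j, z1⟩⟩ := p'
      obtain ⟨a1, a2, a3, a4⟩ := (hT0 _).1 hp'
      obtain ⟨e1, e2⟩ := Prod.mk.inj e
      dsimp only at a1 a2 a3 a4 e1 e2 ⊢
      subst a3
      rw [← e2]
      exact mem_image.2 ⟨i, mem_filter.2 ⟨hL _ a1, a2, z0, a1, e1, a4⟩, rfl⟩⟩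
  obtain ⟨Q, hQ, hcQ⟩ := ftup_cs g3
  simp only [Prod.mk.injEq] at hQ
  obtain ⟨T, hT⟩ : ∃ T : Finset ((ℕ × ℝ) × ℝ × Θ),
      ∀ τ, τ ∈ T ↔ ∃ q ∈ Q, (q.1.1, q.1.2.2, θ q.2.1) = τ :=
    ⟨Q.image fun q => (q.1.1, q.1.2.2, θ q.2.1), fun τ => mem_image⟩
  have hs : ∀ q ∈ Q, ∃ i i' z0 z1, q = (((i, z0), (i, z1)), ((i', z0), (i', z1))) ∧
      (i, z0) ∈ c.E ∧ (i, z1) ∈ c.E ∧ (i', z0) ∈ c.E ∧ (i', z1) ∈ c.E ∧ cz Lw z0 = cz Lw z1 ∧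
      key (i', z0) = key (i, z0) ∧ c1 (i, z1) = c1 (i', z1) := by
    rintro ⟨⟨⟨i, z0⟩, ⟨j, z1⟩⟩, ⟨⟨i', z0'⟩, ⟨j', z1'⟩⟩⟩ hq
    obtain ⟨b1, b2, ⟨b3, b4⟩, b5⟩ := (hQ _).1 hq
    obtain ⟨a1, a2, a3, a4⟩ := (hT0 _).1 b1
    obtain ⟨a1', a2', a3', -⟩ := (hT0 _).1 b2
    have b6 := hkey _ a1 _ a1' b3
    dsimp only at a1 a2 a3 a4 a1' a2' a3' b3 b4 b5 b6
    subst a3 a3' b4 b6
    exact ⟨i, i', z0, z1, rfl, a1, a2, a1', a2', a4, b3.symm, b5⟩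
  have hfib : (Q.card : ℝ) ≤ T.card * m1 := by
    refine fib_A2 (f := fun q => (q.1.1, q.1.2.2, θ q.2.1)) hm1.le
      ⟨T, le_rfl, fun q hq => (hT _).2 ⟨q, hq, rfl⟩⟩ fun q hq => ?_
    obtain ⟨i, i', z0, z1, rfl, -⟩ := hs q hq
    refine ⟨Finset.image (fun j => (((i, z0), (i, z1)), ((j, z0), (j, z1)))) _,
      le_trans (by exact_mod_cast card_image_le)
        (h4 (key (i, z0)) (θ (i', z0)) z1 (c1 (i, z1))), fun q' hq' e => ?_⟩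
    obtain ⟨k, k', w0, w1, rfl, -, -, a3, a4, a5, a6, a7⟩ := hs q' hq'
    simp only [Prod.mk.injEq] at e
    obtain ⟨⟨rfl, rfl⟩, rfl, e4⟩ := e
    exact mem_image.2 ⟨k', mem_filter.2 ⟨hL _ a3, a4, a7.symm, _, a3, a6, e4, a5⟩, rfl⟩
  refine ⟨T, ftup_arith (A := nK * n1) (q := Q.card) h.nL_pos hH0 hK0 hL0 (by positivity) hnΘ
    (Nat.cast_nonneg _) h.mass hc0 (le_trans hcQ (le_of_eq (by ring))) hfib h5, fun τ hτ => ?_⟩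
  obtain ⟨q, hq, rfl⟩ := (hT τ).1 hτ
  obtain ⟨i, i', z0, z1, rfl, a1, a2, a3, a4, a5, a6, a7⟩ := hs q hq
  exact ⟨a1, a2, a5, i', a3, a4, a6, rfl, a7⟩

end Vale.Agent.P127
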